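import Mathlib

namespace Vale.Agent.P066

open Finset

set_option linter.unusedSectionVars false
set_option linter.unusedSimpArgs false

section abs

variable {V σ R : Type*} [Fintype V] [DecidableEq V] [Fintype σ] [LinearOrder σ] [CommRing R]

def phi (q : R) (x y : σ) : R := if x = y then 0 else if x < y then q else 1

def wt (q : R) (E : Finset (V × V)) (f : V → σ) : R := ∏ p ∈ E, phi q (f p.1) (f p.2)

def Z (q : R) (x : σ → R) (E : Finset (V × V)) : R := ∑ f : V → σ, wt q E f * ∏ v, x (f v)

theorem phi_self (q : R) (x : σ) : phi q x x = 0 := by simp [phi]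

theorem wt_insert (q : R) (E : Finset (V × V)) (p : V × V) (hp : p ∉ E) (f : V → σ) :
    wt q (insert p E) f = phi q (f p.1) (f p.2) * wt q E f := by
  unfold wt
  rw [Finset.prod_insert hp]

theorem wt_swap (q : R) (R0 : Finset (V × V)) (a b : V)
    (hinv : ∀ p ∈ R0, (Equiv.swap a b p.1, Equiv.swap a b p.2) ∈ R0) (f : V → σ) :
    wt q R0 (f ∘ Equiv.swap a b) = wt q R0 f := by
  unfold wt
  refine Finset.prod_nbij' (fun p => (Equiv.swap a b p.1, Equiv.swap a b p.2))
    (fun p => (Equiv.swap a b p.1, Equiv.swap a b p.2)) hinv hinv ?_ ?_ ?_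
  · intro p _; simp
  · intro p _; simp
  · intro p _; simp

theorem sum_swap_zero (q : R) (x : σ → R) (R0 : Finset (V × V)) (i a b : V)
    (hia : i ≠ a) (hib : i ≠ b)
    (hinv : ∀ p ∈ R0, (Equiv.swap a b p.1, Equiv.swap a b p.2) ∈ R0)
    (Lc : σ → σ → σ → R) (hL : ∀ x y z, Lc x y z + Lc x z y = 0) (hL0 : ∀ x y, Lc x y y = 0) :
    ∑ f : V → σ, wt q R0 f * (∏ v, x (f v)) * Lc (f i) (f a) (f b) = 0 := by
  refine Finset.sum_involution (fun f _ => f ∘ Equiv.swap a b) ?_ ?_ ?_ ?_
  · intro f _
    have h1 : wt q R0 (f ∘ Equiv.swap a b) = wt q R0 f := wt_swap q R0 a b hinv f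
    have h2 : ∏ v, x ((f ∘ Equiv.swap a b) v) = ∏ v, x (f v) :=
      Equiv.prod_comp (Equiv.swap a b) (fun v => x (f v))
    rw [h1, h2]
    simp only [Function.comp, Equiv.swap_apply_left, Equiv.swap_apply_right,
      Equiv.swap_apply_of_ne_of_ne hia hib]
    rw [← mul_add, hL, mul_zero]
  · intro f _ hne heq
    apply hne
    have : f b = f a := by
      have := congrFun heq a
      simpa using this
    rw [this, hL0, mul_zero]
  · intro f _; exact Finset.mem_univ _
  · intro f _
    funext v
    simp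

theorem local_row (q : R) (x y z : σ) :
    ((1 + q) * (phi q x y * phi q y z) - q * phi q y z - phi q x z * (phi q x y * phi q y z))
    + ((1 + q) * (phi q x z * phi q z y) - q * phi q z y - phi q x y * (phi q x z * phi q z y))
      = 0 := by
  unfold phi
  rcases lt_trichotomy x y with h1 | h1 | h1 <;> rcases lt_trichotomy y z with h2 | h2 | h2 <;>
    rcases lt_trichotomy x z with h3 | h3 | h3 <;>
    first
    | (exfalso; order)
    | (subst_vars
       simp [*, ne_of_lt, ne_of_gt, not_lt_of_gt, le_of_lt] <;> ring)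

theorem local_col (q : R) (x y z : σ) :
    ((1 + q) * (phi q z x * phi q y z) - q * phi q y z - phi q y x * (phi q z x * phi q y z))
    + ((1 + q) * (phi q y x * phi q z y) - q * phi q z y - phi q z x * (phi q y x * phi q z y))
      = 0 := by
  unfold phi
  rcases lt_trichotomy x y with h1 | h1 | h1 <;> rcases lt_trichotomy y z with h2 | h2 | h2 <;>
    rcases lt_trichotomy x z with h3 | h3 | h3 <;>
    first
    | (exfalso; order)
    | (subst_vars
       simp [*, ne_of_lt, ne_of_gt, not_lt_of_gt, le_of_lt] <;> ring)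

theorem Z_row (q : R) (x : σ → R) (R0 : Finset (V × V)) (i a b : V)
    (hia : i ≠ a) (hib : i ≠ b) (hab : a ≠ b)
    (hinv : ∀ p ∈ R0, (Equiv.swap a b p.1, Equiv.swap a b p.2) ∈ R0)
    (h1 : (a, b) ∉ R0) (h2 : (i, a) ∉ R0) (h3 : (i, b) ∉ R0) :
    (1 + q) * Z q x (insert (i, a) (insert (a, b) R0))
      = q * Z q x (insert (a, b) R0) + Z q x (insert (i, b) (insert (i, a) (insert (a, b) R0))) := by
  have m1 : (i, a) ∉ insert (a, b) R0 := by
    simp only [Finset.mem_insert, Prod.mk.injEq, not_or]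
    exact ⟨fun h => hia h.1, h2⟩
  have m2 : (i, b) ∉ insert (i, a) (insert (a, b) R0) := by
    simp only [Finset.mem_insert, Prod.mk.injEq, not_or]
    exact ⟨fun h => hab h.2.symm, fun h => hia h.1, h3⟩
  have key := sum_swap_zero q x R0 i a b hia hib hinv
    (fun x y z => (1 + q) * (phi q x y * phi q y z) - q * phi q y z
      - phi q x z * (phi q x y * phi q y z))
    (fun x y z => local_row q x y z) (fun x y => by simp [phi_self])
  rw [← sub_eq_zero, ← key]
  unfold Z
  rw [Finset.mul_sum, Finset.mul_sum, ← Finset.sum_add_distrib, ← Finset.sum_sub_distrib]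
  refine Finset.sum_congr rfl fun f _ => ?_
  rw [wt_insert q _ _ m2, wt_insert q _ _ m1, wt_insert q _ _ h1]
  ring

theorem Z_col (q : R) (x : σ → R) (R0 : Finset (V × V)) (i a b : V)
    (hia : i ≠ a) (hib : i ≠ b) (hab : a ≠ b)
    (hinv : ∀ p ∈ R0, (Equiv.swap a b p.1, Equiv.swap a b p.2) ∈ R0)
    (h1 : (a, b) ∉ R0) (h2 : (b, i) ∉ R0) (h3 : (a, i) ∉ R0) :
    (1 + q) * Z q x (insert (b, i) (insert (a, b) R0))
      = q * Z q x (insert (a, b) R0) + Z q x (insert (a, i) (insert (b, i) (insert (a, b) R0))) := by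
  have m1 : (b, i) ∉ insert (a, b) R0 := by
    simp only [Finset.mem_insert, Prod.mk.injEq, not_or]
    exact ⟨fun h => hab h.1.symm, h2⟩
  have m2 : (a, i) ∉ insert (b, i) (insert (a, b) R0) := by
    simp only [Finset.mem_insert, Prod.mk.injEq, not_or]
    exact ⟨fun h => hab h.1, fun h => hib h.2, h3⟩
  have key := sum_swap_zero q x R0 i a b hia hib hinv
    (fun x y z => (1 + q) * (phi q z x * phi q y z) - q * phi q y z
      - phi q y x * (phi q z x * phi q y z))
    (fun x y z => local_col q x y z) (fun x y => by simp [phi_self])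
  rw [← sub_eq_zero, ← key]
  unfold Z
  rw [Finset.mul_sum, Finset.mul_sum, ← Finset.sum_add_distrib, ← Finset.sum_sub_distrib]
  refine Finset.sum_congr rfl fun f _ => ?_
  rw [wt_insert q _ _ m2, wt_insert q _ _ m1, wt_insert q _ _ h1]
  ring

end abs

end Vale.Agent.P066
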