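import Vale.Agent.P066.EPos

namespace Vale.Agent.P066

open Finset MvPolynomial

set_option linter.unusedSectionVars false
set_option linter.unusedSimpArgs false

noncomputable abbrev qq (N : ℕ) : MvPolynomial (Fin N) (Polynomial ℤ) := C Polynomial.X

theorem chi_eq_Z (n : ℕ) (h : ℕ → ℕ) (N : ℕ) :
    chi n h N = Z (qq N) (fun i => (X i : MvPolynomial (Fin N) (Polynomial ℤ))) (edges n h) := by
  classical
  unfold chi Z
  refine Finset.sum_congr rfl fun f _ => ?_
  by_cases hp : IsProper h f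
  · rw [if_pos hp]
    congr 1
    unfold wt asc
    have : ∀ p ∈ edges n h, phi (qq N) (f p.1) (f p.2) = if f p.1 < f p.2 then qq N else 1 := by
      intro p hpe
      unfold phi
      rw [if_neg (hp p hpe)]
    rw [Finset.prod_congr rfl this, Finset.prod_ite, Finset.prod_const, Finset.prod_const_one,
      mul_one, map_pow]
  · rw [if_neg hp]
    unfold IsProper at hp
    push Not at hp
    obtain ⟨p, hpe, hpp⟩ := hp
    have : wt (qq N) (edges n h) f = 0 := by
      unfold wt
      refine Finset.prod_eq_zero hpe ?_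
      rw [hpp, phi_self]
    rw [this, zero_mul]

theorem qn_qq (N k : ℕ) : qn (qq N) k = C (qn Polynomial.X k) := by
  unfold qn; simp [map_sum, map_pow]

theorem qf_qq (N k : ℕ) : qf (qq N) k = C (qf Polynomial.X k) := by
  induction k with
  | zero => simp [qf]
  | succ k ih => simp only [qf, map_mul, ih, qn_qq]

theorem chi_congr {n : ℕ} {h h' : ℕ → ℕ} (hh : ∀ u, u < n → h u = h' u) : chi n h = chi n h' := by
  funext N
  rw [chi_eq_Z, chi_eq_Z, edges_congr hh]

theorem chi_complete (n : ℕ) : chi n (fun _ => n) = sc (qf Polynomial.X n) * eS n := by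
  funext N
  rw [chi_eq_Z, Z_complete, qf_qq]
  rfl

theorem chi_split (n1 n2 : ℕ) (h : ℕ → ℕ) (hsep : ∀ u, u < n1 → h u ≤ n1) :
    chi (n1 + n2) h = chi n1 h * chi n2 (fun u => h (u + n1) - n1) := by
  funext N
  rw [Pi.mul_apply, chi_eq_Z, chi_eq_Z, chi_eq_Z, Z_split _ _ n1 n2 h hsep]

theorem chi_line (n : ℕ) (hh : ℕ → ℕ → ℕ) (M : ℕ)
    (h3 : ∀ k, k + 2 ≤ M → ∀ N : ℕ, (1 + qq N) * chi n (hh (k + 1)) N
      = qq N * chi n (hh k) N + chi n (hh (k + 2)) N) (k : ℕ) (hk : k ≤ M) :
    sc (qn Polynomial.X M) * chi n (hh k)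
      = sc (Polynomial.X ^ k * qn Polynomial.X (M - k)) * chi n (hh 0)
        + sc (qn Polynomial.X k) * chi n (hh M) := by
  funext N
  have := line (qq N) (fun k => chi n (hh k) N) M (fun k hk => h3 k hk N) k hk
  simp only [Pi.mul_apply, Pi.add_apply, sc, map_mul, map_pow]
  rw [qn_qq, qn_qq, qn_qq] at this
  exact this

end Vale.Agent.P066
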