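import Vale.Agent.P066.Prod

namespace Vale.Agent.P066

open Finset

set_option linter.unusedSectionVars false
set_option linter.unusedSimpArgs false

section cmp

variable {σ R : Type*} [Fintype σ] [LinearOrder σ] [CommRing R]

def qn (q : R) (k : ℕ) : R := ∑ i ∈ range k, q ^ i

def qf (q : R) : ℕ → R
  | 0 => 1
  | (k + 1) => qn q (k + 1) * qf q k

def Wc (q : R) (n : ℕ) (f : Fin n → σ) : R :=
  ∏ u : Fin n, ∏ v : Fin n, if u < v then phi q (f u) (f v) else 1

theorem Wc_cons (q : R) (n : ℕ) (c : σ) (g : Fin n → σ) :
    Wc q (n + 1) (Fin.cons c g : Fin (n + 1) → σ) = (∏ v, phi q c (g v)) * Wc q n g := by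
  unfold Wc
  rw [Fin.prod_univ_succ]
  congr 1
  · rw [Fin.prod_univ_succ]
    simp
  · refine Finset.prod_congr rfl fun u _ => ?_
    rw [Fin.prod_univ_succ]
    simp

theorem Wc_not_inj (q : R) (n : ℕ) (f : Fin n → σ) (hf : ¬ Function.Injective f) :
    Wc q n f = 0 := by
  unfold Function.Injective at hf
  push Not at hf
  obtain ⟨u, v, huv, hne⟩ := hf
  unfold Wc
  rcases lt_or_gt_of_ne hne with hlt | hlt
  · refine Finset.prod_eq_zero (Finset.mem_univ u) ?_
    refine Finset.prod_eq_zero (Finset.mem_univ v) ?_
    rw [if_pos hlt, huv, phi_self]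
  · refine Finset.prod_eq_zero (Finset.mem_univ v) ?_
    refine Finset.prod_eq_zero (Finset.mem_univ u) ?_
    rw [if_pos hlt, huv, phi_self]

theorem sum_q_filter (q : R) (t : Finset σ) :
    ∑ c ∈ t, q ^ (t.filter (fun s => c < s)).card = qn q t.card := by
  induction t using Finset.induction_on_min with
  | empty => simp [qn]
  | insert m s hm ih =>
    have hms : m ∉ s := fun h => lt_irrefl _ (hm m h)
    rw [Finset.sum_insert hms, Finset.card_insert_of_notMem hms]
    unfold qn at ih ⊢
    rw [Finset.sum_range_succ, ← ih, add_comm]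
    congr 1
    · refine Finset.sum_congr rfl fun c hc => ?_
      congr 2
      rw [Finset.filter_insert, if_neg (not_lt_of_gt (hm c hc))]
    · congr 1
      rw [Finset.filter_insert, if_neg (lt_irrefl _)]
      congr 1
      exact Finset.filter_true_of_mem hm

def Mc (q : R) (n : ℕ) (t : Finset σ) : R :=
  ∑ f : Fin n → σ, if Finset.univ.image f = t then Wc q n f else 0

theorem Mc_step (q : R) (n : ℕ) (t : Finset σ) (c : σ) (g : Fin n → σ) :
    (if insert c (Finset.univ.image g) = t then (∏ v, phi q c (g v)) * Wc q n g else 0)
      = if c ∈ t then q ^ (t.filter (fun s => c < s)).card *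
          (if Finset.univ.image g = t.erase c then Wc q n g else 0) else 0 := by
  by_cases hc : c ∈ Finset.univ.image g
  · have h0 : (∏ v, phi q c (g v)) = 0 := by
      obtain ⟨v, _, hv⟩ := Finset.mem_image.mp hc
      refine Finset.prod_eq_zero (Finset.mem_univ v) ?_
      rw [hv, phi_self]
    have h1 : Finset.univ.image g ≠ t.erase c := by
      intro h; rw [h] at hc; exact (Finset.notMem_erase c t) hc
    rw [h0, if_neg h1]; simp
  · by_cases hct : c ∈ t
    · rw [if_pos hct]
      by_cases him : Finset.univ.image g = t.erase c
      · rw [if_pos him, if_pos (by rw [him, Finset.insert_erase hct])]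
        by_cases hg : Function.Injective g
        · congr 1
          have e1 : (∏ v, phi q c (g v)) = ∏ s ∈ Finset.univ.image g, phi q c s := by
            rw [Finset.prod_image (fun a _ b _ hab => hg hab)]
          rw [e1, him]
          have e2 : ∀ s ∈ t.erase c, phi q c s = if c < s then q else 1 := by
            intro s hs
            unfold phi
            rw [if_neg (Finset.ne_of_mem_erase hs).symm]
          rw [Finset.prod_congr rfl e2, Finset.prod_ite, Finset.prod_const, Finset.prod_const_one,
            mul_one]
          congr 2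
          ext s
          simp only [Finset.mem_filter, Finset.mem_erase]
          constructor
          · rintro ⟨⟨_, h2⟩, h3⟩; exact ⟨h2, h3⟩
          · rintro ⟨h2, h3⟩; exact ⟨⟨ne_of_gt h3, h2⟩, h3⟩
        · rw [Wc_not_inj q n g hg]; simp
      · rw [if_neg him, if_neg, mul_zero]
        intro h; apply him; rw [← h, Finset.erase_insert hc]
    · rw [if_neg hct, if_neg]
      intro h; apply hct; rw [← h]; exact Finset.mem_insert_self _ _

theorem Mc_eq (q : R) (n : ℕ) : ∀ t : Finset σ, Mc q n t = if t.card = n then qf q n else 0 := by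
  induction n with
  | zero =>
    intro t
    unfold Mc
    simp only [Finset.univ_unique, Finset.sum_singleton, Finset.univ_eq_empty, Finset.image_empty]
    by_cases ht : t = ∅
    · subst ht; simp [Wc, qf]
    · rw [if_neg (fun h => ht h.symm), if_neg]
      rwa [Finset.card_eq_zero]
  | succ n ih =>
    intro t
    unfold Mc
    rw [← (Fin.consEquiv (fun _ => σ)).sum_comp, Fintype.sum_prod_type]
    have step : ∀ c : σ, (∑ g : Fin n → σ,
        if Finset.univ.image ((Fin.consEquiv (fun _ => σ)) (c, g)) = t
          then Wc q (n + 1) ((Fin.consEquiv (fun _ => σ)) (c, g)) else 0)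
        = if c ∈ t then q ^ (t.filter (fun s => c < s)).card * Mc q n (t.erase c) else 0 := by
      intro c
      have : ∀ g : Fin n → σ, (if Finset.univ.image ((Fin.consEquiv (fun _ => σ)) (c, g)) = t
          then Wc q (n + 1) ((Fin.consEquiv (fun _ => σ)) (c, g)) else 0)
          = if c ∈ t then q ^ (t.filter (fun s => c < s)).card *
          (if Finset.univ.image g = t.erase c then Wc q n g else 0) else 0 := by
        intro g
        rw [← Mc_step]
        have e1 : (Fin.consEquiv (fun _ => σ)) (c, g) = (Fin.cons c g : Fin (n + 1) → σ) := rfl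
        rw [e1, Wc_cons]
        have e2 : Finset.univ.image (Fin.cons c g : Fin (n + 1) → σ)
            = insert c (Finset.univ.image g) := by
          ext s
          simp only [Finset.mem_image, Finset.mem_univ, true_and, Finset.mem_insert]
          constructor
          · rintro ⟨v, hv⟩
            refine Fin.cases ?_ ?_ v hv
            · intro h; left; simpa using h.symm
            · intro v' h; right; exact ⟨v', by simpa using h⟩
          · rintro (h | ⟨v, hv⟩)
            · exact ⟨0, by simp [h]⟩
            · exact ⟨v.succ, by simpa using hv⟩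
        rw [e2]
      rw [Finset.sum_congr rfl (fun g _ => this g)]
      by_cases hct : c ∈ t
      · simp only [if_pos hct]
        rw [← Finset.mul_sum]; rfl
      · simp only [if_neg hct]
        simp
    rw [Finset.sum_congr rfl (fun c _ => step c), ← Finset.sum_filter, Finset.filter_mem_eq_inter,
      Finset.univ_inter]
    by_cases hcard : t.card = n + 1
    · rw [if_pos hcard]
      have : ∀ c ∈ t, q ^ (t.filter (fun s => c < s)).card * Mc q n (t.erase c)
          = q ^ (t.filter (fun s => c < s)).card * qf q n := by
        intro c hc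
        rw [ih, if_pos]
        rw [Finset.card_erase_of_mem hc, hcard]; rfl
      rw [Finset.sum_congr rfl this, ← Finset.sum_mul, sum_q_filter, hcard]
      rfl
    · rw [if_neg hcard]
      refine Finset.sum_eq_zero fun c hc => ?_
      rw [ih, if_neg, mul_zero]
      rw [Finset.card_erase_of_mem hc]
      have : 0 < t.card := Finset.card_pos.mpr ⟨c, hc⟩
      omega

theorem Z_complete (q : R) (x : σ → R) (n : ℕ) :
    Z q x (edges n (fun _ => n)) = qf q n * ∑ t ∈ Finset.powersetCard n Finset.univ, ∏ i ∈ t, x i := by
  unfold Z
  have e1 : ∀ f : Fin n → σ, wt q (edges n (fun _ => n)) f * ∏ v, x (f v)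
      = ∑ t : Finset σ, (if Finset.univ.image f = t then Wc q n f else 0) * ∏ i ∈ t, x i := by
    intro f
    have hw : wt q (edges n (fun _ => n)) f = Wc q n f := by
      rw [wt_edges]
      unfold Wc
      refine Finset.prod_congr rfl fun u _ => Finset.prod_congr rfl fun v _ => ?_
      have : ((u : ℕ) < v ∧ (v : ℕ) < n) ↔ u < v := by
        constructor
        · intro h; exact h.1
        · intro h; exact ⟨h, v.2⟩
      simp only [this]
    rw [hw]
    simp only [ite_mul, zero_mul]
    rw [Finset.sum_ite_eq]
    simp only [Finset.mem_univ, if_true]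
    by_cases hf : Function.Injective f
    · rw [Finset.prod_image (fun a _ b _ hab => hf hab)]
    · rw [Wc_not_inj q n f hf]; simp
  rw [Finset.sum_congr rfl (fun f _ => e1 f), Finset.sum_comm]
  have e2 : ∀ t : Finset σ, (∑ f : Fin n → σ,
      (if Finset.univ.image f = t then Wc q n f else 0) * ∏ i ∈ t, x i)
      = (if t.card = n then qf q n else 0) * ∏ i ∈ t, x i := by
    intro t
    rw [← Finset.sum_mul, ← Mc_eq]; rfl
  rw [Finset.sum_congr rfl (fun t _ => e2 t)]
  simp only [ite_mul, zero_mul]
  rw [← Finset.sum_filter, Finset.mul_sum]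
  refine Finset.sum_congr ?_ fun _ _ => rfl
  ext t
  simp [Finset.mem_powersetCard]

end cmp

end Vale.Agent.P066
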