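import Mathlib

namespace Vale.Agent.P066

open MvPolynomial

/-- `h` is a Hessenberg function on `n` vertices. Vertices are `0, ..., n-1` (vertex `i` here is
vertex `i+1` of the problem) and `h i` is the value `h(i+1)` of the problem, so
`i + 1 ≤ h i ≤ n` and `h` is weakly increasing. -/
def IsHess (n : ℕ) (h : ℕ → ℕ) : Prop :=
  (∀ i, i < n → i + 1 ≤ h i ∧ h i ≤ n) ∧ ∀ i j, i ≤ j → j < n → h i ≤ h j

/-- Edges of the natural unit interval graph of `h`, as pairs `(i, j)` with `i < j < h i`
(this is `i+1 < j+1 ≤ h(i+1)` in the indexing of the problem). -/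
def edges (n : ℕ) (h : ℕ → ℕ) : Finset (Fin n × Fin n) :=
  Finset.univ.filter fun p => (p.1 : ℕ) < p.2 ∧ (p.2 : ℕ) < h p.1

/-- A colouring with colours in `Fin N` is proper. -/
def IsProper {n N : ℕ} (h : ℕ → ℕ) (f : Fin n → Fin N) : Prop :=
  ∀ p ∈ edges n h, f p.1 ≠ f p.2

/-- Number of ascents of a colouring. -/
def asc {n N : ℕ} (h : ℕ → ℕ) (f : Fin n → Fin N) : ℕ :=
  ((edges n h).filter fun p => f p.1 < f p.2).card

open Classical in
/-- The chromatic quasisymmetric function of the graph of `h`, in the `N` variables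
`x_0, ..., x_{N-1}`, with coefficients in `ℤ[q]`. -/
noncomputable def chi (n : ℕ) (h : ℕ → ℕ) (N : ℕ) : MvPolynomial (Fin N) (Polynomial ℤ) :=
  ∑ f : Fin n → Fin N,
    if IsProper h f then C (Polynomial.X ^ asc h f) * ∏ a, X (f a) else 0

/-- `e_mu` in `N` variables. -/
noncomputable def ePart {n : ℕ} (mu : Nat.Partition n) (N : ℕ) :
    MvPolynomial (Fin N) (Polynomial ℤ) :=
  (mu.parts.map fun k => esymm (Fin N) (Polynomial ℤ) k).prod

/-- There are `c_mu(q)` in `ℕ[q]` with `chi = ∑_mu c_mu(q) e_mu` in any number of variables. -/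
def EPositive (n : ℕ) (h : ℕ → ℕ) : Prop :=
  ∃ c : Nat.Partition n → Polynomial ℕ, ∀ N : ℕ,
    chi n h N = ∑ mu : Nat.Partition n, C ((c mu).map (Nat.castRingHom ℤ)) * ePart mu N

/-- Hessenberg function of the graph on `a + p + b` vertices made of a clique `A` on the first `a`
vertices, a path on the next `p` vertices and a clique `B` on the last `b` vertices, where the
first path vertex is joined to the last `s` vertices of `A` and the last path vertex is joined to
the first `t` vertices of `B`. -/
def bridge (a s p t b : ℕ) : ℕ → ℕ := fun x =>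
  if x < a - s then a
  else if x < a then a + 1
  else if x + 1 < a + p then x + 2
  else if x + 1 = a + p then a + p + t
  else a + p + b

end Vale.Agent.P066
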