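import Vale.Agent.P066.Line

namespace Vale.Agent.P066

open Finset MvPolynomial

set_option linter.unusedSectionVars false
set_option linter.unusedSimpArgs false

abbrev SF := (N : ℕ) → MvPolynomial (Fin N) (Polynomial ℤ)

noncomputable def sc (p : Polynomial ℤ) : SF := fun _ => C p

noncomputable def eS (k : ℕ) : SF := fun N => esymm (Fin N) (Polynomial ℤ) k

def NN (p : Polynomial ℤ) : Prop := ∃ p' : Polynomial ℕ, p'.map (Nat.castRingHom ℤ) = p

def EP (d : ℕ) (F : SF) : Prop :=
  ∃ c : Nat.Partition d → Polynomial ℕ, ∀ N : ℕ,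
    F N = ∑ mu : Nat.Partition d, C ((c mu).map (Nat.castRingHom ℤ)) * ePart mu N

theorem sc_mul (p p' : Polynomial ℤ) : sc (p * p') = sc p * sc p' := by
  funext N; simp [sc]

theorem sc_add (p p' : Polynomial ℤ) : sc (p + p') = sc p + sc p' := by
  funext N; simp [sc]

theorem sc_one : sc 1 = 1 := by
  funext N; simp [sc]

theorem sc_cancel {p : Polynomial ℤ} (hp : p ≠ 0) {F G : SF} (h : sc p * F = sc p * G) : F = G := by
  funext N
  have := congrFun h N
  simp only [Pi.mul_apply, sc] at this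
  exact mul_left_cancel₀ (by simpa using hp) this

theorem NN_one : NN 1 := ⟨1, by simp⟩
theorem NN_X : NN Polynomial.X := ⟨Polynomial.X, by simp⟩
theorem NN_zero : NN 0 := ⟨0, by simp⟩
theorem NN_add {p p' : Polynomial ℤ} (h : NN p) (h' : NN p') : NN (p + p') := by
  obtain ⟨a, rfl⟩ := h; obtain ⟨b, rfl⟩ := h'; exact ⟨a + b, by simp⟩
theorem NN_mul {p p' : Polynomial ℤ} (h : NN p) (h' : NN p') : NN (p * p') := by
  obtain ⟨a, rfl⟩ := h; obtain ⟨b, rfl⟩ := h'; exact ⟨a * b, by simp⟩
theorem NN_pow {p : Polynomial ℤ} (h : NN p) (k : ℕ) : NN (p ^ k) := by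
  obtain ⟨a, rfl⟩ := h; exact ⟨a ^ k, by simp⟩
theorem NN_qn (k : ℕ) : NN (qn Polynomial.X k) := by
  induction k with
  | zero => rw [qn_zero]; exact NN_zero
  | succ k ih => rw [qn_succ]; exact NN_add ih (NN_pow NN_X k)
theorem NN_qf (k : ℕ) : NN (qf Polynomial.X k) := by
  induction k with
  | zero => exact NN_one
  | succ k ih => exact NN_mul (NN_qn _) ih

theorem qn_ne_zero (k : ℕ) : qn (Polynomial.X : Polynomial ℤ) (k + 1) ≠ 0 := by
  intro h
  have := congrArg (Polynomial.eval 1) h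
  simp [qn, Polynomial.eval_finsetSum] at this
  omega

theorem EP_cast {d d' : ℕ} (h : d = d') {F : SF} (hF : EP d F) : EP d' F := by
  subst h; exact hF

theorem EP_add {d : ℕ} {F G : SF} (hF : EP d F) (hG : EP d G) : EP d (F + G) := by
  obtain ⟨c, hc⟩ := hF
  obtain ⟨c', hc'⟩ := hG
  refine ⟨fun mu => c mu + c' mu, fun N => ?_⟩
  rw [Pi.add_apply, hc, hc', ← Finset.sum_add_distrib]
  refine Finset.sum_congr rfl fun mu _ => ?_
  simp only [Polynomial.map_add, map_add]
  ring

theorem EP_smul {d : ℕ} {F : SF} {p : Polynomial ℤ} (hp : NN p) (hF : EP d F) :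
    EP d (sc p * F) := by
  obtain ⟨c, hc⟩ := hF
  obtain ⟨p', rfl⟩ := hp
  refine ⟨fun mu => p' * c mu, fun N => ?_⟩
  rw [Pi.mul_apply, hc, Finset.mul_sum]
  refine Finset.sum_congr rfl fun mu _ => ?_
  simp only [Polynomial.map_mul, map_mul, sc]
  ring

theorem EP_one : EP 0 1 := by
  refine ⟨fun _ => 1, fun N => ?_⟩
  have : (Finset.univ : Finset (Nat.Partition 0)) = {Nat.Partition.indiscrete 0} := by
    ext mu
    simp only [Finset.mem_univ, Finset.mem_singleton, true_iff]
    exact Subsingleton.elim _ _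
  rw [this, Finset.sum_singleton]
  simp [ePart, Nat.Partition.indiscrete]

def consPart {d : ℕ} (k : ℕ) (hk : 0 < k) (mu : Nat.Partition d) : Nat.Partition (d + k) where
  parts := k ::ₘ mu.parts
  parts_pos := by
    intro i hi
    rcases Multiset.mem_cons.mp hi with h | h
    · rw [h]; exact hk
    · exact mu.parts_pos h
  parts_sum := by
    rw [Multiset.sum_cons, mu.parts_sum, add_comm]

theorem ePart_cons {d : ℕ} (k : ℕ) (hk : 0 < k) (mu : Nat.Partition d) (N : ℕ) :
    ePart (consPart k hk mu) N = esymm (Fin N) (Polynomial ℤ) k * ePart mu N := by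
  simp [ePart, consPart]

theorem EP_e_mul {d : ℕ} {F : SF} (k : ℕ) (hk : 0 < k) (hF : EP d F) :
    EP (d + k) (eS k * F) := by
  obtain ⟨c, hc⟩ := hF
  refine ⟨fun nu => ∑ mu ∈ Finset.univ.filter (fun mu => consPart k hk mu = nu), c mu,
    fun N => ?_⟩
  rw [Pi.mul_apply, hc, Finset.mul_sum]
  rw [← Finset.sum_fiberwise Finset.univ (consPart k hk)]
  refine Finset.sum_congr rfl fun nu _ => ?_
  rw [Polynomial.map_sum, map_sum, Finset.sum_mul]
  refine Finset.sum_congr rfl fun mu hmu => ?_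
  rw [← (Finset.mem_filter.mp hmu).2, ePart_cons]
  simp only [eS]
  ring

end Vale.Agent.P066
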