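import Vale.Agent.P066.ChiZ

namespace Vale.Agent.P066

open Finset MvPolynomial

set_option linter.unusedSectionVars false
set_option linter.unusedSimpArgs false

noncomputable abbrev XX (a s p t b : ℕ) : SF := chi (a + p + b) (bridge a s p t b)

noncomputable abbrev qi (k : ℕ) : Polynomial ℤ := qn Polynomial.X k
noncomputable abbrev qfa (k : ℕ) : Polynomial ℤ := qf Polynomial.X k

theorem bridge_isHess (a s p t b : ℕ) (hs : s ≤ a) (ht : t ≤ b) (hp : 1 ≤ p) :
    IsHess (a + p + b) (bridge a s p t b) := by
  constructor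
  · intro i hi
    unfold bridge
    split_ifs <;> omega
  · intro i j hij hj
    unfold bridge
    split_ifs <;> omega

theorem RL (a s p b : ℕ) (hp : 1 ≤ p) (t : ℕ) (ht : t ≤ b) :
    sc (qi b) * XX a s p t b
      = sc (Polynomial.X ^ t * qi (b - t)) * XX a s p 0 b + sc (qi t) * XX a s p b b := by
  refine chi_line (a + p + b) (fun t => bridge a s p t b) b ?_ t ht
  intro k hk N
  rw [chi_eq_Z, chi_eq_Z, chi_eq_Z]
  refine Zrow _ _ (a + p + b) _ _ _ (a + p - 1) (a + p + k) (by omega) (by omega) ?_ ?_ ?_ ?_ ?_ ?_ ?_ ?_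
  · unfold bridge; split_ifs <;> omega
  · unfold bridge; split_ifs <;> omega
  · unfold bridge; split_ifs <;> omega
  · intro u hu; unfold bridge; split_ifs <;> omega
  · intro u hu; unfold bridge; split_ifs <;> omega
  · unfold bridge; split_ifs <;> omega
  · unfold bridge; split_ifs <;> omega
  · intro u hu hu'; unfold bridge; split_ifs <;> omega

theorem LL (a p t b : ℕ) (hp : 1 ≤ p) (s : ℕ) (hs : s ≤ a) :
    sc (qi a) * XX a s p t b
      = sc (Polynomial.X ^ s * qi (a - s)) * XX a 0 p t b + sc (qi s) * XX a a p t b := by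
  refine chi_line (a + p + b) (fun s => bridge a s p t b) a ?_ s hs
  intro k hk N
  rw [chi_eq_Z, chi_eq_Z, chi_eq_Z]
  refine Zcol _ _ (a + p + b) _ _ _ a (a - k - 2) (by omega) (by omega) ?_ ?_ ?_ ?_ ?_ ?_ ?_ ?_ ?_
  · unfold bridge; split_ifs <;> omega
  · unfold bridge; split_ifs <;> omega
  · unfold bridge; split_ifs <;> omega
  · unfold bridge; split_ifs <;> omega
  · unfold bridge; split_ifs <;> omega
  · unfold bridge; split_ifs <;> omega
  · intro u hu hu'; unfold bridge; split_ifs <;> omega
  · intro u hu hu'; unfold bridge; split_ifs <;> omega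
  · intro u hu; unfold bridge; split_ifs <;> omega

theorem IdR (a s p b : ℕ) : XX a s p 1 (b + 1) = XX a s (p + 1) b b := by
  have e : a + p + (b + 1) = a + (p + 1) + b := by omega
  unfold XX
  rw [e]
  refine chi_congr fun u hu => ?_
  unfold bridge; split_ifs <;> omega

theorem IdL (a p t b : ℕ) (hp : 1 ≤ p) : XX (a + 1) 1 p t b = XX a a (p + 1) t b := by
  have e : a + 1 + p + b = a + (p + 1) + b := by omega
  unfold XX
  rw [e]
  refine chi_congr fun u hu => ?_
  unfold bridge; split_ifs <;> omega

theorem PrR (a s p b : ℕ) (hp : 1 ≤ p) :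
    XX a s p 0 b = XX a s p 0 0 * (sc (qfa b) * eS b) := by
  unfold XX
  rw [chi_split (a + p) b _ (by intro u hu; unfold bridge; split_ifs <;> omega), ← chi_complete]
  congr 1
  · refine chi_congr fun u hu => ?_
    unfold bridge; split_ifs <;> omega
  · refine chi_congr fun u hu => ?_
    unfold bridge; split_ifs <;> omega

theorem PrL (a p t b : ℕ) :
    XX a 0 p t b = (sc (qfa a) * eS a) * XX 0 0 p t b := by
  unfold XX
  have e : a + p + b = a + (0 + p + b) := by omega
  rw [e, chi_split a (0 + p + b) _ (by intro u hu; unfold bridge; split_ifs <;> omega),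
    ← chi_complete]
  congr 1
  · refine chi_congr fun u hu => ?_
    unfold bridge; split_ifs <;> omega
  · refine chi_congr fun u hu => ?_
    unfold bridge; split_ifs <;> omega

theorem BaseR (b : ℕ) : XX 0 0 1 b b = sc (qfa (b + 1)) * eS (b + 1) := by
  unfold XX
  have e : 0 + 1 + b = b + 1 := by omega
  rw [e, ← chi_complete]
  refine chi_congr fun u hu => ?_
  unfold bridge; split_ifs <;> omega

theorem BaseL (a : ℕ) : XX a a 1 0 0 = sc (qfa (a + 1)) * eS (a + 1) := by
  unfold XX
  have e : a + 1 + 0 = a + 1 := by omega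
  rw [e, ← chi_complete]
  refine chi_congr fun u hu => ?_
  unfold bridge; split_ifs <;> omega

end Vale.Agent.P066
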