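import Vale.Agent.P066.Defs
import Vale.Agent.P066.Abstract

namespace Vale.Agent.P066

open Finset

set_option linter.unusedSectionVars false
set_option linter.unusedSimpArgs false

section hess

variable {σ R : Type*} [Fintype σ] [LinearOrder σ] [CommRing R]

theorem mem_edges {n : ℕ} {h : ℕ → ℕ} {p : Fin n × Fin n} :
    p ∈ edges n h ↔ (p.1 : ℕ) < p.2 ∧ (p.2 : ℕ) < h p.1 := by
  simp [edges]

theorem edges_congr {n : ℕ} {h h' : ℕ → ℕ} (hh : ∀ u, u < n → h u = h' u) :
    edges n h = edges n h' := by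
  ext p
  rw [mem_edges, mem_edges, hh p.1 p.1.2]

theorem Zrow (q : R) (x : σ → R) (n : ℕ) (h0 h1 h2 : ℕ → ℕ) (i a : ℕ) (hia : i < a)
    (han : a + 1 < n)
    (e0 : h0 i = a) (e1 : h1 i = a + 1) (e2 : h2 i = a + 2)
    (o1 : ∀ u, u ≠ i → h1 u = h0 u) (o2 : ∀ u, u ≠ i → h2 u = h0 u)
    (tw : h0 a = h0 (a + 1)) (adj : a + 2 ≤ h0 a)
    (low : ∀ u, u < a → u ≠ i → h0 u ≤ a ∨ a + 2 ≤ h0 u) :
    (1 + q) * Z q x (edges n h1) = q * Z q x (edges n h0) + Z q x (edges n h2) := by
  set I : Fin n := ⟨i, by omega⟩ with hI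
  set A : Fin n := ⟨a, by omega⟩ with hA
  set B : Fin n := ⟨a + 1, han⟩ with hB
  set R0 := (edges n h0).erase (A, B) with hR0
  have hAB : (A, B) ∈ edges n h0 := by
    rw [mem_edges]; simp only [hA, hB]; omega
  have E0 : edges n h0 = insert (A, B) R0 := (Finset.insert_erase hAB).symm
  have E1 : edges n h1 = insert (I, A) (edges n h0) := by
    ext ⟨u, v⟩
    rw [Finset.mem_insert, mem_edges, mem_edges, Prod.mk.injEq, Fin.ext_iff, Fin.ext_iff]
    simp only [hI, hA]
    by_cases hu : (u : ℕ) = i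
    · rw [hu, e0, e1]; omega
    · rw [o1 _ hu]; omega
  have E2 : edges n h2 = insert (I, B) (edges n h1) := by
    ext ⟨u, v⟩
    rw [Finset.mem_insert, mem_edges, mem_edges, Prod.mk.injEq, Fin.ext_iff, Fin.ext_iff]
    simp only [hI, hB]
    by_cases hu : (u : ℕ) = i
    · rw [hu, e2, e1]; omega
    · rw [o1 _ hu, o2 _ hu]; omega
  rw [E2, E1, E0]
  have hIA : I ≠ A := by simp only [hI, hA, ne_eq, Fin.mk.injEq]; omega
  have hIB : I ≠ B := by simp only [hI, hB, ne_eq, Fin.mk.injEq]; omega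
  have hABne : A ≠ B := by simp only [hA, hB, ne_eq, Fin.mk.injEq]; omega
  refine Z_row q x R0 I A B hIA hIB hABne ?_ ?_ ?_ ?_
  · rintro ⟨u, v⟩ hp
    rw [hR0, Finset.mem_erase, mem_edges] at hp ⊢
    obtain ⟨hne, h1', h2'⟩ := hp
    simp only at h1' h2' hne ⊢
    rw [ne_eq, Prod.mk.injEq, Fin.ext_iff, Fin.ext_iff] at hne
    simp only [hA, hB] at hne
    rw [ne_eq, Prod.mk.injEq]
    by_cases huA : u = A
    · have hva : (v : ℕ) ≠ a := by rw [huA] at h1'; simp only [hA] at h1'; omega
      have hvb : (v : ℕ) ≠ a + 1 := by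
        intro hv; apply hne; rw [huA]; exact ⟨rfl, hv⟩
      have hvA : v ≠ A := by intro hv; apply hva; rw [hv]
      have hvB : v ≠ B := by intro hv; apply hvb; rw [hv]
      rw [huA, Equiv.swap_apply_left, Equiv.swap_apply_of_ne_of_ne hvA hvB]
      rw [huA] at h1' h2'
      simp only [hA, hB] at h1' h2' ⊢
      refine ⟨fun hh => ?_, ?_, ?_⟩
      · have := congrArg Fin.val hh.1; simp at this
      · omega
      · omega
    · by_cases huB : u = B
      · have hva : (v : ℕ) ≠ a := by rw [huB] at h1'; simp only [hB] at h1'; omega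
        have hvb : (v : ℕ) ≠ a + 1 := by rw [huB] at h1'; simp only [hB] at h1'; omega
        have hvA : v ≠ A := by intro hv; apply hva; rw [hv]
        have hvB : v ≠ B := by intro hv; apply hvb; rw [hv]
        rw [huB, Equiv.swap_apply_right, Equiv.swap_apply_of_ne_of_ne hvA hvB]
        rw [huB] at h1' h2'
        simp only [hA, hB] at h1' h2' ⊢
        refine ⟨fun hh => hvB hh.2, ?_, ?_⟩
        · omega
        · omega
      · rw [Equiv.swap_apply_of_ne_of_ne huA huB]
        have hua : (u : ℕ) ≠ a := by intro hv; apply huA; ext; exact hv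
        have hub : (u : ℕ) ≠ a + 1 := by intro hv; apply huB; ext; exact hv
        by_cases hvA : v = A
        · rw [hvA, Equiv.swap_apply_left]
          rw [hvA] at h1' h2'
          simp only [hA, hB] at h1' h2' ⊢
          refine ⟨fun hh => huA hh.1, by omega, ?_⟩
          by_cases hui : (u : ℕ) = i
          · rw [hui, e0] at h2'; omega
          · rcases low u h1' hui with hl | hl <;> omega
        · by_cases hvB : v = B
          · rw [hvB, Equiv.swap_apply_right]
            rw [hvB] at h1' h2'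
            simp only [hA, hB] at h1' h2' ⊢
            refine ⟨fun hh => huA hh.1, by omega, by omega⟩
          · rw [Equiv.swap_apply_of_ne_of_ne hvA hvB]
            exact ⟨fun hh => huA hh.1, h1', h2'⟩
  · rw [hR0]; simp
  · rw [hR0, Finset.mem_erase, mem_edges]
    simp only [hI, hA]
    rw [e0]; omega
  · rw [hR0, Finset.mem_erase, mem_edges]
    simp only [hI, hB]
    rw [e0]; omega

theorem Zcol (q : R) (x : σ → R) (n : ℕ) (h0 h1 h2 : ℕ → ℕ) (i a : ℕ) (hai : a + 1 < i)
    (hin : i < n)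
    (e0a : h0 a = i) (e0b : h0 (a + 1) = i) (e1a : h1 a = i) (e1b : h1 (a + 1) = i + 1)
    (e2a : h2 a = i + 1) (e2b : h2 (a + 1) = i + 1)
    (o1 : ∀ u, u ≠ a → u ≠ a + 1 → h1 u = h0 u) (o2 : ∀ u, u ≠ a → u ≠ a + 1 → h2 u = h0 u)
    (low : ∀ u, u < a → h0 u ≤ a ∨ a + 2 ≤ h0 u) :
    (1 + q) * Z q x (edges n h1) = q * Z q x (edges n h0) + Z q x (edges n h2) := by
  set I : Fin n := ⟨i, hin⟩ with hI
  set A : Fin n := ⟨a, by omega⟩ with hA
  set B : Fin n := ⟨a + 1, by omega⟩ with hB
  set R0 := (edges n h0).erase (A, B) with hR0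
  have hAB : (A, B) ∈ edges n h0 := by
    rw [mem_edges]; simp only [hA, hB]; omega
  have E0 : edges n h0 = insert (A, B) R0 := (Finset.insert_erase hAB).symm
  have E1 : edges n h1 = insert (B, I) (edges n h0) := by
    ext ⟨u, v⟩
    rw [Finset.mem_insert, mem_edges, mem_edges, Prod.mk.injEq, Fin.ext_iff, Fin.ext_iff]
    simp only [hI, hB]
    by_cases hu : (u : ℕ) = a
    · rw [hu, e0a, e1a]; omega
    · by_cases hu' : (u : ℕ) = a + 1
      · rw [hu', e0b, e1b]; omega
      · rw [o1 _ hu hu']; omega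
  have E2 : edges n h2 = insert (A, I) (edges n h1) := by
    ext ⟨u, v⟩
    rw [Finset.mem_insert, mem_edges, mem_edges, Prod.mk.injEq, Fin.ext_iff, Fin.ext_iff]
    simp only [hI, hA]
    by_cases hu : (u : ℕ) = a
    · rw [hu, e2a, e1a]; omega
    · by_cases hu' : (u : ℕ) = a + 1
      · rw [hu', e2b, e1b]; omega
      · rw [o1 _ hu hu', o2 _ hu hu']; omega
  rw [E2, E1, E0]
  have hIA : I ≠ A := by simp only [hI, hA, ne_eq, Fin.mk.injEq]; omega
  have hIB : I ≠ B := by simp only [hI, hB, ne_eq, Fin.mk.injEq]; omega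
  have hABne : A ≠ B := by simp only [hA, hB, ne_eq, Fin.mk.injEq]; omega
  refine Z_col q x R0 I A B hIA hIB hABne ?_ ?_ ?_ ?_
  · rintro ⟨u, v⟩ hp
    rw [hR0, Finset.mem_erase, mem_edges] at hp ⊢
    obtain ⟨hne, h1', h2'⟩ := hp
    simp only at h1' h2' hne ⊢
    rw [ne_eq, Prod.mk.injEq, Fin.ext_iff, Fin.ext_iff] at hne
    simp only [hA, hB] at hne
    rw [ne_eq, Prod.mk.injEq]
    by_cases huA : u = A
    · have hva : (v : ℕ) ≠ a := by rw [huA] at h1'; simp only [hA] at h1'; omega
      have hvb : (v : ℕ) ≠ a + 1 := by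
        intro hv; apply hne; rw [huA]; exact ⟨rfl, hv⟩
      have hvA : v ≠ A := by intro hv; apply hva; rw [hv]
      have hvB : v ≠ B := by intro hv; apply hvb; rw [hv]
      rw [huA, Equiv.swap_apply_left, Equiv.swap_apply_of_ne_of_ne hvA hvB]
      rw [huA] at h1' h2'
      simp only [hA, hB] at h1' h2' ⊢
      refine ⟨fun hh => ?_, ?_, ?_⟩
      · have := congrArg Fin.val hh.1; simp at this
      · omega
      · omega
    · by_cases huB : u = B
      · have hva : (v : ℕ) ≠ a := by rw [huB] at h1'; simp only [hB] at h1'; omega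
        have hvb : (v : ℕ) ≠ a + 1 := by rw [huB] at h1'; simp only [hB] at h1'; omega
        have hvA : v ≠ A := by intro hv; apply hva; rw [hv]
        have hvB : v ≠ B := by intro hv; apply hvb; rw [hv]
        rw [huB, Equiv.swap_apply_right, Equiv.swap_apply_of_ne_of_ne hvA hvB]
        rw [huB] at h1' h2'
        simp only [hA, hB] at h1' h2' ⊢
        refine ⟨fun hh => hvB hh.2, ?_, ?_⟩
        · omega
        · omega
      · rw [Equiv.swap_apply_of_ne_of_ne huA huB]
        have hua : (u : ℕ) ≠ a := by intro hv; apply huA; ext; exact hv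
        have hub : (u : ℕ) ≠ a + 1 := by intro hv; apply huB; ext; exact hv
        by_cases hvA : v = A
        · rw [hvA, Equiv.swap_apply_left]
          rw [hvA] at h1' h2'
          simp only [hA, hB] at h1' h2' ⊢
          refine ⟨fun hh => huA hh.1, by omega, ?_⟩
          rcases low u h1' with hl | hl <;> omega
        · by_cases hvB : v = B
          · rw [hvB, Equiv.swap_apply_right]
            rw [hvB] at h1' h2'
            simp only [hA, hB] at h1' h2' ⊢
            refine ⟨fun hh => huA hh.1, by omega, by omega⟩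
          · rw [Equiv.swap_apply_of_ne_of_ne hvA hvB]
            exact ⟨fun hh => huA hh.1, h1', h2'⟩
  · rw [hR0]; simp
  · rw [hR0, Finset.mem_erase, mem_edges]
    simp only [hI, hB]
    rw [e0b]; omega
  · rw [hR0, Finset.mem_erase, mem_edges]
    simp only [hI, hA]
    rw [e0a]; omega

end hess

end Vale.Agent.P066
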