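import Vale.Agent.P066.Complete

namespace Vale.Agent.P066

open Finset

set_option linter.unusedSectionVars false
set_option linter.unusedSimpArgs false

section lin

variable {R : Type*} [CommRing R]

theorem qn_zero (q : R) : qn q 0 = 0 := by simp [qn]

theorem qn_one (q : R) : qn q 1 = 1 := by simp [qn]

theorem qn_succ (q : R) (k : ℕ) : qn q (k + 1) = qn q k + q ^ k := by
  unfold qn; rw [Finset.sum_range_succ]

theorem qn_add (q : R) (k l : ℕ) : qn q (k + l) = qn q k + q ^ k * qn q l := by
  induction l with
  | zero => simp [qn_zero]
  | succ l ih => rw [← add_assoc, qn_succ, ih, qn_succ, pow_add]; ring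

theorem line (q : R) (A : ℕ → R) (M : ℕ)
    (h : ∀ k, k + 2 ≤ M → (1 + q) * A (k + 1) = q * A k + A (k + 2)) :
    ∀ k, k ≤ M → qn q M * A k = q ^ k * qn q (M - k) * A 0 + qn q k * A M := by
  have hd : ∀ k, k + 1 ≤ M → A (k + 1) - A k = q ^ k * (A 1 - A 0) := by
    intro k
    induction k with
    | zero => intro _; simp
    | succ k ih =>
      intro hk
      have h1 := ih (by omega)
      have h2 := h k (by omega)
      have : A (k + 1 + 1) - A (k + 1) = q * (A (k + 1) - A k) := by
        have e : k + 1 + 1 = k + 2 := rfl
        rw [e]; linear_combination -h2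
      rw [this, h1, pow_succ]; ring
  have hA : ∀ k, k ≤ M → A k = A 0 + qn q k * (A 1 - A 0) := by
    intro k
    induction k with
    | zero => intro _; simp [qn_zero]
    | succ k ih =>
      intro hk
      have h1 := ih (by omega)
      have h2 := hd k hk
      rw [qn_succ]
      linear_combination h1 + h2
  intro k hk
  have hM : qn q M = qn q k + q ^ k * qn q (M - k) := by
    rw [← qn_add]; congr 1; omega
  rw [hA k hk, hA M le_rfl]
  linear_combination (A 0) * hM

end lin

end Vale.Agent.P066
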