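import Vale.Agent.P066.Family

namespace Vale.Agent.P066

open Finset MvPolynomial

set_option linter.unusedSectionVars false
set_option linter.unusedSimpArgs false

theorem qn_cross {R : Type*} [CommRing R] (q : R) (a d : ℕ) :
    qn q (a + 1) * qn q (a + d) - qn q a * qn q (a + d + 1) = q ^ a * qn q d := by
  rw [qn_succ, qn_succ, add_comm a d, qn_add q d a, pow_add]; ring

theorem sc_cross (a d : ℕ) :
    sc (qi (a + 1)) * sc (qi (a + d)) - sc (qi a) * sc (qi (a + d + 1))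
      = sc Polynomial.X ^ a * sc (qi d) := by
  have := qn_cross (Polynomial.X : Polynomial ℤ) a d
  funext N
  have h2 := congrArg (C : Polynomial ℤ → MvPolynomial (Fin N) (Polynomial ℤ)) this
  simpa [sc] using h2

theorem sc_pow (p : Polynomial ℤ) (k : ℕ) : sc (p ^ k) = sc p ^ k := by
  funext N; simp [sc]

theorem qfa_succ (k : ℕ) : sc (qfa (k + 1)) = sc (qi (k + 1)) * sc (qfa k) := by
  rw [← sc_mul]; rfl

theorem qfa_zero : sc (qfa 0) = 1 := sc_one

theorem qi_one : sc (qi 1) = 1 := by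
  have : qi 1 = 1 := qn_one _
  rw [this, sc_one]

theorem EP_e (k : ℕ) (hk : 0 < k) : EP k (eS k) := by
  have := EP_e_mul k hk EP_one
  rw [mul_one] at this
  exact EP_cast (by omega) this

def SD (a p b : ℕ) : Prop :=
  ∃ δ : SF, EP (a + p + b) δ ∧ XX a a p b b = sc (qfa a) * sc (qfa b) * δ

theorem SD_baseR (d : ℕ) : SD 0 1 d := by
  refine ⟨sc (qi (d + 1)) * eS (d + 1), ?_, ?_⟩
  · exact EP_smul (NN_qn _) (EP_cast (by omega) (EP_e (d + 1) (by omega)))
  · rw [BaseR, qfa_succ, qfa_zero]; ring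

theorem SD_baseL (d : ℕ) : SD d 1 0 := by
  refine ⟨sc (qi (d + 1)) * eS (d + 1), ?_, ?_⟩
  · exact EP_smul (NN_qn _) (EP_cast (by omega) (EP_e (d + 1) (by omega)))
  · rw [BaseL, qfa_succ, qfa_zero]; ring

theorem two_lines (a b : ℕ) :
    (sc (qi (b + 1)) * XX a a 2 b b = sc Polynomial.X * sc (qi b) *
        ((sc (qi (a + 1)) * sc (qfa a) * eS (a + 1)) * (sc (qi (b + 1)) * sc (qfa b) * eS (b + 1)))
        + XX a a 1 (b + 1) (b + 1)) ∧
    (sc (qi (a + 1)) * XX a a 2 b b = sc Polynomial.X * sc (qi a) *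
        ((sc (qi (a + 1)) * sc (qfa a) * eS (a + 1)) * (sc (qi (b + 1)) * sc (qfa b) * eS (b + 1)))
        + XX (a + 1) (a + 1) 1 b b) := by
  constructor
  · have r1 := RL a a 1 (b + 1) le_rfl 1 (by omega)
    rw [IdR, PrR a a 1 (b + 1) le_rfl, BaseL, qi_one, sc_mul, pow_one, qfa_succ, qfa_succ,
      one_mul] at r1
    exact r1
  · have l1 := LL (a + 1) 1 b b le_rfl 1 (by omega)
    rw [IdL a 1 b b le_rfl, PrL, BaseR, qi_one, sc_mul, pow_one, qfa_succ, qfa_succ,
      one_mul] at l1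
    exact l1

theorem SD_step1 (a d : ℕ) (h : SD a 1 (a + d + 1)) : SD (a + 1) 1 (a + d) := by
  obtain ⟨u, hu, hU⟩ := h
  obtain ⟨r1, l1⟩ := two_lines a (a + d)
  refine ⟨u + sc (Polynomial.X ^ (a + 1) * qi d) * (eS (a + 1) * eS (a + d + 1)), ?_, ?_⟩
  · refine EP_add (EP_cast (by omega) hu) (EP_smul (NN_mul (NN_pow NN_X _) (NN_qn _)) ?_)
    exact EP_cast (by omega) (EP_e_mul (a + 1) (by omega) (EP_e (a + d + 1) (by omega)))
  · apply sc_cancel (qn_ne_zero (a + d))
    rw [hU, qfa_succ] at r1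
    rw [qfa_succ, sc_mul, sc_pow]
    have hq := sc_cross a d
    linear_combination (-(sc (qi (a + d + 1)))) * l1 + sc (qi (a + 1)) * r1
      + (sc Polynomial.X * ((sc (qi (a + 1)) * sc (qfa a) * eS (a + 1)) *
        (sc (qi (a + d + 1)) * sc (qfa (a + d)) * eS (a + d + 1)))) * hq

theorem SD_step2 (b d : ℕ) (h : SD (b + d + 1) 1 b) : SD (b + d) 1 (b + 1) := by
  obtain ⟨w, hw, hW⟩ := h
  obtain ⟨r1, l1⟩ := two_lines (b + d) b
  refine ⟨w + sc (Polynomial.X ^ (b + 1) * qi d) * (eS (b + d + 1) * eS (b + 1)), ?_, ?_⟩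
  · refine EP_add (EP_cast (by omega) hw) (EP_smul (NN_mul (NN_pow NN_X _) (NN_qn _)) ?_)
    exact EP_cast (by omega) (EP_e_mul (b + d + 1) (by omega) (EP_e (b + 1) (by omega)))
  · apply sc_cancel (qn_ne_zero (b + d))
    rw [hW, qfa_succ] at l1
    rw [qfa_succ, sc_mul, sc_pow]
    have hq := sc_cross b d
    linear_combination (-(sc (qi (b + d + 1)))) * r1 + sc (qi (b + 1)) * l1
      + (sc Polynomial.X * ((sc (qi (b + d + 1)) * sc (qfa (b + d)) * eS (b + d + 1)) *
        (sc (qi (b + 1)) * sc (qfa b) * eS (b + 1)))) * hq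

theorem SD_le (a : ℕ) : ∀ d, SD a 1 (a + d) := by
  induction a with
  | zero => intro d; rw [zero_add]; exact SD_baseR d
  | succ a ih =>
    intro d
    have := SD_step1 a (d + 1) (ih (d + 1 + 1))
    have e : a + (d + 1) = a + 1 + d := by omega
    rwa [e] at this

theorem SD_ge (b : ℕ) : ∀ d, SD (b + d) 1 b := by
  induction b with
  | zero => intro d; rw [zero_add]; exact SD_baseL d
  | succ b ih =>
    intro d
    have := SD_step2 b (d + 1) (ih (d + 1 + 1))
    have e : b + (d + 1) = b + 1 + d := by omega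
    rwa [e] at this

theorem SD_one (a b : ℕ) : SD a 1 b := by
  rcases le_total a b with h | h
  · obtain ⟨d, rfl⟩ := Nat.exists_eq_add_of_le h; exact SD_le a d
  · obtain ⟨d, rfl⟩ := Nat.exists_eq_add_of_le h; exact SD_ge b d

theorem SD_succ (a p b : ℕ) (hp : 1 ≤ p) (h1 : SD a p (b + 1)) (h0 : SD a p 0) :
    SD a (p + 1) b := by
  obtain ⟨d1, hd1, hD1⟩ := h1
  obtain ⟨d0, hd0, hD0⟩ := h0
  refine ⟨sc (Polynomial.X * qi b) * (eS (b + 1) * d0) + d1, ?_, ?_⟩
  · refine EP_add (EP_smul (NN_mul NN_X (NN_qn _)) ?_) (EP_cast (by omega) hd1)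
    exact EP_cast (by omega) (EP_e_mul (b + 1) (by omega) hd0)
  · apply sc_cancel (qn_ne_zero b)
    have r := RL a a p (b + 1) hp 1 (by omega)
    rw [IdR, PrR a a p (b + 1) hp, hD0, hD1, qi_one, sc_mul, pow_one, qfa_succ, qfa_zero] at r
    rw [sc_mul]
    have e : b + 1 - 1 = b := by omega
    rw [e] at r
    linear_combination r

theorem SD_all (p : ℕ) (hp : 1 ≤ p) : ∀ a b, SD a p b := by
  induction p, hp using Nat.le_induction with
  | base => exact SD_one
  | succ p hp ih => intro a b; exact SD_succ a p b hp (ih a (b + 1)) (ih a 0)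

theorem left_melt (a s p b : ℕ) (hs : s ≤ a) (hp : 1 ≤ p) :
    ∃ τ : SF, EP (a + p + b) τ ∧ XX a s p b b = sc (qfa b) * τ := by
  cases a with
  | zero =>
    obtain ⟨d, hd, hD⟩ := SD_all p hp 0 b
    have : s = 0 := by omega
    subst this
    exact ⟨d, hd, by rw [hD, qfa_zero, one_mul]⟩
  | succ a =>
    obtain ⟨d0, hd0, hD0⟩ := SD_all p hp 0 b
    obtain ⟨d1, hd1, hD1⟩ := SD_all p hp (a + 1) b
    refine ⟨sc (qfa a) * (sc (Polynomial.X ^ s * qi (a + 1 - s)) * (eS (a + 1) * d0)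
      + sc (qi s) * d1), ?_, ?_⟩
    · refine EP_smul (NN_qf _) (EP_add (EP_smul (NN_mul (NN_pow NN_X _) (NN_qn _)) ?_)
        (EP_smul (NN_qn _) hd1))
      exact EP_cast (by omega) (EP_e_mul (a + 1) (by omega) hd0)
    · apply sc_cancel (qn_ne_zero a)
      have l := LL (a + 1) p b b hp s hs
      rw [PrL, hD0, hD1, qfa_succ, qfa_zero] at l
      linear_combination l

theorem bridge_EP (a s p t b : ℕ) (hs : s ≤ a) (ht : t ≤ b) (hp : 1 ≤ p) :
    EP (a + p + b) (XX a s p t b) := by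
  cases b with
  | zero =>
    obtain ⟨d, hd, hD⟩ := left_melt a s p 0 hs hp
    have : t = 0 := by omega
    subst this
    rw [hD, qfa_zero, one_mul]; exact hd
  | succ b =>
    obtain ⟨d0, hd0, hD0⟩ := left_melt a s p 0 hs hp
    obtain ⟨d1, hd1, hD1⟩ := left_melt a s p (b + 1) hs hp
    have key : XX a s p t (b + 1) = sc (qfa b) * (sc (Polynomial.X ^ t * qi (b + 1 - t)) *
        (eS (b + 1) * d0) + sc (qi t) * d1) := by
      apply sc_cancel (qn_ne_zero b)
      have r := RL a s p (b + 1) hp t ht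
      rw [PrR a s p (b + 1) hp, hD0, hD1, qfa_succ, qfa_zero] at r
      linear_combination r
    rw [key]
    refine EP_smul (NN_qf _) (EP_add (EP_smul (NN_mul (NN_pow NN_X _) (NN_qn _)) ?_)
        (EP_smul (NN_qn _) hd1))
    exact EP_cast (by omega) (EP_e_mul (b + 1) (by omega) hd0)

theorem bridge_EPositive (a s p t b : ℕ) (hs : s ≤ a) (ht : t ≤ b) (hp : 1 ≤ p) :
    EPositive (a + p + b) (bridge a s p t b) :=
  bridge_EP a s p t b hs ht hp

end Vale.Agent.P066
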