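import Vale.Agent.P066.Hess

namespace Vale.Agent.P066

open Finset

set_option linter.unusedSectionVars false
set_option linter.unusedSimpArgs false

section prd

variable {σ R : Type*} [Fintype σ] [LinearOrder σ] [CommRing R]

theorem wt_edges (q : R) (n : ℕ) (h : ℕ → ℕ) (f : Fin n → σ) :
    wt q (edges n h) f = ∏ u : Fin n, ∏ v : Fin n,
      if ((u : ℕ) < v ∧ (v : ℕ) < h u) then phi q (f u) (f v) else 1 := by
  unfold wt edges
  rw [Finset.prod_filter, ← Finset.univ_product_univ, Finset.prod_product]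

theorem wt_append (q : R) (n1 n2 : ℕ) (h : ℕ → ℕ) (hsep : ∀ u, u < n1 → h u ≤ n1)
    (f1 : Fin n1 → σ) (f2 : Fin n2 → σ) :
    wt q (edges (n1 + n2) h) (Fin.append f1 f2)
      = wt q (edges n1 h) f1 * wt q (edges n2 (fun u => h (u + n1) - n1)) f2 := by
  rw [wt_edges, wt_edges, wt_edges, Fin.prod_univ_add]
  congr 1
  · refine Finset.prod_congr rfl fun u _ => ?_
    rw [Fin.prod_univ_add]
    have : ∏ v : Fin n2, (if (((Fin.castAdd n2 u : Fin (n1 + n2)) : ℕ) < (Fin.natAdd n1 v : Fin (n1 + n2))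
        ∧ ((Fin.natAdd n1 v : Fin (n1 + n2)) : ℕ) < h (Fin.castAdd n2 u : Fin (n1 + n2)))
        then phi q (Fin.append f1 f2 (Fin.castAdd n2 u)) (Fin.append f1 f2 (Fin.natAdd n1 v))
        else 1) = 1 := by
      refine Finset.prod_eq_one fun v _ => ?_
      rw [if_neg]
      have := hsep u u.2
      simp only [Fin.val_castAdd, Fin.val_natAdd]
      omega
    rw [this, mul_one]
    refine Finset.prod_congr rfl fun v _ => ?_
    simp only [Fin.val_castAdd, Fin.append_left]
  · refine Finset.prod_congr rfl fun u _ => ?_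
    rw [Fin.prod_univ_add]
    have : ∏ v : Fin n1, (if (((Fin.natAdd n1 u : Fin (n1 + n2)) : ℕ) < (Fin.castAdd n2 v : Fin (n1 + n2))
        ∧ ((Fin.castAdd n2 v : Fin (n1 + n2)) : ℕ) < h (Fin.natAdd n1 u : Fin (n1 + n2)))
        then phi q (Fin.append f1 f2 (Fin.natAdd n1 u)) (Fin.append f1 f2 (Fin.castAdd n2 v))
        else 1) = 1 := by
      refine Finset.prod_eq_one fun v _ => ?_
      rw [if_neg]
      have := v.2
      simp only [Fin.val_castAdd, Fin.val_natAdd]
      omega
    rw [this, one_mul]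
    refine Finset.prod_congr rfl fun v _ => ?_
    simp only [Fin.val_natAdd, Fin.append_right]
    have e : n1 + (u : ℕ) = u + n1 := by omega
    rw [e]
    by_cases hc : ((u : ℕ) < v ∧ (v : ℕ) < h (u + n1) - n1)
    · rw [if_pos hc, if_pos (by omega)]
    · rw [if_neg hc, if_neg (by omega)]

theorem Z_split (q : R) (x : σ → R) (n1 n2 : ℕ) (h : ℕ → ℕ) (hsep : ∀ u, u < n1 → h u ≤ n1) :
    Z q x (edges (n1 + n2) h)
      = Z q x (edges n1 h) * Z q x (edges n2 (fun u => h (u + n1) - n1)) := by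
  unfold Z
  rw [← (Fin.appendEquiv n1 n2).sum_comp, Fintype.sum_prod_type, Finset.sum_mul_sum]
  refine Finset.sum_congr rfl fun f1 _ => Finset.sum_congr rfl fun f2 _ => ?_
  simp only [Fin.appendEquiv, Equiv.coe_fn_mk]
  rw [wt_append q n1 n2 h hsep, Fin.prod_univ_add]
  simp only [Fin.append_left, Fin.append_right]
  ring

end prd

end Vale.Agent.P066
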